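import Vale.Agent.P227.Stmt

namespace Vale.Agent.P227

open Set MeasureTheory
open scoped Pointwise

/-- planar determinant -/
def det (w x : ℝ × ℝ) : ℝ := w.1 * x.2 - w.2 * x.1

/-- centred segment -/
def seg (v : ℝ × ℝ) : Set (ℝ × ℝ) := segment ℝ (-v) v

/-- support value in the direction normal to `w` -/
noncomputable def hs (M : Set (ℝ × ℝ)) (w : ℝ × ℝ) : ℝ := sSup ((fun x => det w x) '' M)

/-- nonempty compact convex origin-symmetric planar set -/
structure Sym (M : Set (ℝ × ℝ)) : Prop where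
  cpt : IsCompact M
  cvx : Convex ℝ M
  ne : M.Nonempty
  neg : ∀ x ∈ M, -x ∈ M

/-- intrinsic form of the logarithmic combination with weights `a`, `b` -/
def LW {X : Type*} [NormedAddCommGroup X] [NormedSpace ℝ X] (a b : ℝ) (K L : Set X) : Set X :=
  {x | ∀ (φ : X →L[ℝ] ℝ) (s t : ℝ), 0 ≤ s → 0 ≤ t → (∀ y ∈ K, φ y ≤ s) → (∀ y ∈ L, φ y ≤ t) →
    φ x ≤ s ^ a * t ^ b}

lemma isClosed_LW {X : Type*} [NormedAddCommGroup X] [NormedSpace ℝ X] (a b : ℝ) (K L : Set X) :
    IsClosed (LW a b K L) := by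
  simp only [LW, setOf_forall]
  refine isClosed_iInter fun φ => isClosed_iInter fun s => isClosed_iInter fun t =>
    isClosed_iInter fun _ => isClosed_iInter fun _ => isClosed_iInter fun _ =>
    isClosed_iInter fun _ => isClosed_le φ.continuous continuous_const

lemma det_self (w : ℝ × ℝ) : det w w = 0 := by simp [det]; ring

lemma abs_det_comm (w x : ℝ × ℝ) : |det w x| = |det x w| := by
  rw [← abs_neg]; congr 1; simp [det]; ring

end Vale.Agent.P227
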