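import Vale.Agent.P227.Defs

namespace Vale.Agent.P227

open Set MeasureTheory

/-- invariance under `x ↦ -x` in the plane and under sign changes of the other coordinates -/
def Inv {m : ℕ} (K : Set ((ℝ × ℝ) × (Fin m → ℝ))) : Prop :=
  ∀ x y y', (x, y) ∈ K → (∀ j, |y' j| = |y j|) → (x, y') ∈ K ∧ (-x, y') ∈ K

theorem holder {ι : Type*} [Fintype ι] {a b : ℝ} (ha : 0 < a) (hb : 0 < b) (hab : a + b = 1)
    {s t : ℝ} (hs : 0 ≤ s) (ht : 0 ≤ t) (u v : ι → ℝ) (hu : ∀ j, 0 ≤ u j) (hv : ∀ j, 0 ≤ v j) :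
    s ^ a * t ^ b + ∑ j, u j ^ a * v j ^ b ≤ (s + ∑ j, u j) ^ a * (t + ∑ j, v j) ^ b := by
  have hU : 0 ≤ ∑ j, u j := Finset.sum_nonneg fun j _ => hu j
  have hV : 0 ≤ ∑ j, v j := Finset.sum_nonneg fun j _ => hv j
  have hR : 0 ≤ (s + ∑ j, u j) ^ a * (t + ∑ j, v j) ^ b := by positivity
  rcases (add_nonneg hs hU).eq_or_lt with hS | hS
  · have h1 : s = 0 := by linarith
    have h2 : ∑ j, u j = 0 := by linarith
    have h3 : ∀ j, u j = 0 := fun j =>
      (Finset.sum_eq_zero_iff_of_nonneg fun j _ => hu j).1 h2 j (Finset.mem_univ j)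
    refine le_trans (le_of_eq ?_) hR
    simp [h1, h3, Real.zero_rpow ha.ne']
  rcases (add_nonneg ht hV).eq_or_lt with hT | hT
  · have h1 : t = 0 := by linarith
    have h2 : ∑ j, v j = 0 := by linarith
    have h3 : ∀ j, v j = 0 := fun j =>
      (Finset.sum_eq_zero_iff_of_nonneg fun j _ => hv j).1 h2 j (Finset.mem_univ j)
    refine le_trans (le_of_eq ?_) hR
    simp [h1, h3, Real.zero_rpow hb.ne']
  set S := s + ∑ j, u j with hSd
  set T := t + ∑ j, v j with hTd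
  have hSa : 0 < S ^ a := Real.rpow_pos_of_pos hS a
  have hTb : 0 < T ^ b := Real.rpow_pos_of_pos hT b
  have key : ∀ p q : ℝ, 0 ≤ p → 0 ≤ q →
      p ^ a * q ^ b ≤ S ^ a * T ^ b * (a / S * p + b / T * q) := by
    intro p q hp hq
    have h := Real.geom_mean_le_arith_mean2_weighted ha.le hb.le (div_nonneg hp hS.le)
      (div_nonneg hq hT.le) hab
    rw [Real.div_rpow hp hS.le, Real.div_rpow hq hT.le, div_mul_div_comm,
      div_le_iff₀ (mul_pos hSa hTb)] at h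
    refine h.trans (le_of_eq ?_)
    ring
  have h1 : ∑ j, u j ^ a * v j ^ b ≤
      ∑ j, S ^ a * T ^ b * (a / S * u j + b / T * v j) :=
    Finset.sum_le_sum fun j _ => key _ _ (hu j) (hv j)
  rw [← Finset.mul_sum, Finset.sum_add_distrib, ← Finset.mul_sum, ← Finset.mul_sum] at h1
  have h2 := key s t hs ht
  have h3 : a / S * s + b / T * t + (a / S * ∑ j, u j + b / T * ∑ j, v j) = 1 := by
    have e1 : a / S * s + a / S * ∑ j, u j = a := by
      rw [← mul_add, ← hSd]; field_simp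
    have e2 : b / T * t + b / T * ∑ j, v j = b := by
      rw [← mul_add, ← hTd]; field_simp
    linarith
  calc _ ≤ S ^ a * T ^ b * (a / S * s + b / T * t) +
        S ^ a * T ^ b * (a / S * ∑ j, u j + b / T * ∑ j, v j) := add_le_add h2 h1
    _ = _ := by rw [← mul_add, h3, mul_one]

theorem phi_split {m : ℕ} (φ : ((ℝ × ℝ) × (Fin m → ℝ)) →L[ℝ] ℝ) (x : ℝ × ℝ) (y : Fin m → ℝ) :
    φ (x, y) = φ (x, 0) + ∑ j, y j * φ (0, Pi.single j 1) := by
  have h : (x, y) = (x, 0) + ∑ j, y j • (((0 : ℝ × ℝ), Pi.single j (1 : ℝ)) :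
      (ℝ × ℝ) × (Fin m → ℝ)) := by
    ext1
    · simp [Prod.fst_sum]
    · simp only [Prod.snd_add, Prod.snd_sum, Prod.smul_snd, zero_add]
      exact pi_eq_sum_univ' y
  rw [h, map_add, map_sum]
  simp only [map_smul, smul_eq_mul]

theorem fiber_bound {m : ℕ} {K : Set ((ℝ × ℝ) × (Fin m → ℝ))} (hK : Inv K)
    (φ : ((ℝ × ℝ) × (Fin m → ℝ)) →L[ℝ] ℝ) {s : ℝ} (hφ : ∀ w ∈ K, φ w ≤ s) {y : Fin m → ℝ}
    {x : ℝ × ℝ} (hx : (x, y) ∈ K) :
    |φ (x, 0)| ≤ s - ∑ j, |φ (0, Pi.single j 1)| * |y j| := by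
  set c : Fin m → ℝ := fun j => φ (0, Pi.single j 1) with hc
  set y' : Fin m → ℝ := fun j => if 0 ≤ c j then |y j| else -|y j| with hy'
  have h1 : ∀ j, |y' j| = |y j| := fun j => by
    simp only [hy']
    split_ifs <;> simp
  have h2 : ∑ j, y' j * c j = ∑ j, |c j| * |y j| := Finset.sum_congr rfl fun j _ => by
    simp only [hy']
    split_ifs with h
    · rw [abs_of_nonneg h]; ring
    · rw [abs_of_neg (not_le.1 h)]; ring
  obtain ⟨hp, hn⟩ := hK x y y' hx h1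
  have e1 := hφ _ hp
  have e2 := hφ _ hn
  rw [phi_split] at e1 e2
  have e3 : φ (-x, 0) = -φ (x, 0) := by
    rw [← map_neg]; congr 1; simp
  rw [e3] at e2
  change _ + ∑ j, y' j * c j ≤ s at e1 e2
  rw [h2] at e1 e2
  change _ ≤ s - ∑ j, |c j| * |y j|
  rw [abs_le]
  constructor <;> linarith

theorem fiber_mem {m : ℕ} {K L : Set ((ℝ × ℝ) × (Fin m → ℝ))} (hK : Inv K) (hL : Inv L)
    {a b : ℝ} (ha : 0 < a) (hb : 0 < b) (hab : a + b = 1) {y y' z : Fin m → ℝ}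
    (hz : ∀ j, |z j| = |y j| ^ a * |y' j| ^ b)
    (k0 : {x | (x, y) ∈ K}.Nonempty) (l0 : {x | (x, y') ∈ L}.Nonempty) {x : ℝ × ℝ}
    (hx : x ∈ LW a b {x | (x, y) ∈ K} {x | (x, y') ∈ L}) : (x, z) ∈ LW a b K L := by
  intro φ s t _ _ hKs hLt
  set c : Fin m → ℝ := fun j => φ (0, Pi.single j 1) with hc
  obtain ⟨x1, hx1⟩ := k0
  obtain ⟨x2, hx2⟩ := l0
  have hs1 : 0 ≤ s - ∑ j, |c j| * |y j| := (abs_nonneg _).trans (fiber_bound hK φ hKs hx1)
  have ht1 : 0 ≤ t - ∑ j, |c j| * |y' j| := (abs_nonneg _).trans (fiber_bound hL φ hLt hx2)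
  have h1 := hx (φ.comp (ContinuousLinearMap.inl ℝ _ _)) _ _ hs1 ht1
    (fun w hw => (le_abs_self _).trans (fiber_bound hK φ hKs hw))
    (fun w hw => (le_abs_self _).trans (fiber_bound hL φ hLt hw))
  have h2 := holder ha hb hab hs1 ht1 (fun j => |c j| * |y j|) (fun j => |c j| * |y' j|)
    (fun j => by positivity) (fun j => by positivity)
  simp only [sub_add_cancel] at h2
  have h3 : ∑ j, z j * c j ≤ ∑ j, (|c j| * |y j|) ^ a * (|c j| * |y' j|) ^ b :=
    Finset.sum_le_sum fun j _ => by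
      refine (le_abs_self _).trans (le_of_eq ?_)
      rw [abs_mul, hz j, Real.mul_rpow (abs_nonneg _) (abs_nonneg _),
        Real.mul_rpow (abs_nonneg _) (abs_nonneg _)]
      have h : |c j| ^ a * |c j| ^ b = |c j| := by
        rw [← Real.rpow_add' (abs_nonneg _) (by rw [hab]; exact one_ne_zero), hab, Real.rpow_one]
      calc _ = |y j| ^ a * |y' j| ^ b * (|c j| ^ a * |c j| ^ b) := by rw [h]
        _ = _ := by ring
  rw [phi_split]
  exact (add_le_add h1 h3).trans h2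

end Vale.Agent.P227
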