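import Vale.Agent.P227.LogMink

namespace Vale.Agent.P227

open Set MeasureTheory
open scoped Pointwise

theorem finW {K L : Set (ℝ × ℝ)} (hK : Sym K) (hL : Sym L) (k0 : volume K ≠ 0) (l0 : volume L ≠ 0)
    {a b : ℝ} (ha : 0 < a) (hb : 0 < b) (hab : a + b = 1) (s : Finset (ℝ × ℝ))
    (hs0 : ∀ w ∈ s, w ≠ 0) (h1 : ((1 : ℝ), (0 : ℝ)) ∈ s) (h2 : ((0 : ℝ), (1 : ℝ)) ∈ s) :
    volume K ^ a * volume L ^ b ≤
      volume {x : ℝ × ℝ | ∀ w ∈ s, |det w x| ≤ hs K w ^ a * hs L w ^ b} := by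
  classical
  have hw : ∀ i : s, (i : ℝ × ℝ) ≠ 0 := fun i => hs0 i i.2
  have pK : ∀ i : s, 0 < hs K i := fun i => hK.hs_pos k0 (hw i)
  have pL : ∀ i : s, 0 < hs L i := fun i => hL.hs_pos l0 (hw i)
  have hf : ∀ i : s, 0 < hs K i ^ a * hs L i ^ b := fun i =>
    mul_pos (Real.rpow_pos_of_pos (pK i) a) (Real.rpow_pos_of_pos (pL i) b)
  obtain ⟨c, hc0, ⟨i0, hi0⟩, hc1, hc2⟩ := kkt (fun i j : s => |det i j|)
    (fun i j => abs_det_comm _ _) (fun i j => abs_nonneg _)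
    ⟨⟨_, h1⟩, ⟨_, h2⟩, by simp [det]⟩ (fun i : s => hs K i ^ a * hs L i ^ b) hf
  set W : ℝ := 2 * ∑ i : s, c i * (hs K i ^ a * hs L i ^ b) with hW
  have hW0 : 0 < W := by
    refine mul_pos two_pos (Finset.sum_pos' (fun i _ => mul_nonneg (hc0 i) (hf i).le)
      ⟨i0, Finset.mem_univ _, mul_pos (lt_of_le_of_ne (hc0 i0) (Ne.symm hi0)) (hf i0)⟩)
  have d1 : ∀ (x y : ℝ × ℝ) (t : ℝ), 0 ≤ t → |det x (t • y)| = t * |det x y| := by
    intro x y t ht
    have : det x (t • y) = t * det x y := by simp [det]; ring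
    rw [this, abs_mul, abs_of_nonneg ht]
  have hsub : (∑ j : s, seg (c j • (j : ℝ × ℝ))) ⊆
      {x : ℝ × ℝ | ∀ w ∈ s, |det w x| ≤ hs K w ^ a * hs L w ^ b} := by
    intro x hx w hws
    refine ((Sym.sum _ _).abs_le_hs w hx).trans ?_
    rw [hs_sum]
    refine le_trans (le_of_eq (Finset.sum_congr rfl fun j _ => d1 _ _ _ (hc0 j))) (hc1 ⟨w, hws⟩)
  refine le_trans ?_ (measure_mono hsub)
  have hvol : 2 * ∑ i : s, ∑ j : s, |det (c i • (i : ℝ × ℝ)) (c j • (j : ℝ × ℝ))| = W := by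
    rw [hW]
    congr 1
    refine Finset.sum_congr rfl fun i _ => ?_
    have : ∀ j : s, |det (c i • (i : ℝ × ℝ)) (c j • (j : ℝ × ℝ))| =
        c i * (c j * |det (i : ℝ × ℝ) j|) := fun j => by
      rw [d1 _ _ _ (hc0 j), abs_det_comm, d1 _ _ _ (hc0 i), abs_det_comm]
      ring
    simp only [this]
    rw [← Finset.mul_sum]
    by_cases h : c i = 0
    · simp [h]
    · rw [hc2 i h]
  rw [vol_zono, hvol]
  have mK := logMink hK k0 (fun i : s => (i : ℝ × ℝ)) hw c _ hc0 hc2 hf W hW hW0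
  have mL := logMink hL l0 (fun i : s => (i : ℝ × ℝ)) hw c _ hc0 hc2 hf W hW hW0
  have fK : volume K ≠ ⊤ := hK.cpt.measure_lt_top.ne
  have fL : volume L ≠ ⊤ := hL.cpt.measure_lt_top.ne
  have vK : 0 < (volume K).toReal := ENNReal.toReal_pos k0 fK
  have vL : 0 < (volume L).toReal := ENNReal.toReal_pos l0 fL
  have hz : a * ∑ i : s, 2 * c i * (hs K i ^ a * hs L i ^ b) / W *
        Real.log (hs K i / (hs K i ^ a * hs L i ^ b)) +
      b * ∑ i : s, 2 * c i * (hs K i ^ a * hs L i ^ b) / W *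
        Real.log (hs L i / (hs K i ^ a * hs L i ^ b)) = 0 := by
    rw [Finset.mul_sum, Finset.mul_sum, ← Finset.sum_add_distrib]
    refine Finset.sum_eq_zero fun i _ => ?_
    rw [Real.log_div (pK i).ne' (hf i).ne', Real.log_div (pL i).ne' (hf i).ne',
      Real.log_mul (Real.rpow_pos_of_pos (pK i) a).ne' (Real.rpow_pos_of_pos (pL i) b).ne',
      Real.log_rpow (pK i), Real.log_rpow (pL i)]
    have hb' : b = 1 - a := by linarith
    generalize 2 * c i * (hs K i ^ a * hs L i ^ b) / W = t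
    rw [hb']
    ring
  rw [Real.log_div vK.ne' hW0.ne'] at mK
  rw [Real.log_div vL.ne' hW0.ne'] at mL
  have h3 := mul_le_mul_of_nonneg_left mK ha.le
  have h4 := mul_le_mul_of_nonneg_left mL hb.le
  have h5 : (volume K).toReal ^ a * (volume L).toReal ^ b ≤ W := by
    rw [← Real.log_le_log_iff (by positivity) hW0,
      Real.log_mul (Real.rpow_pos_of_pos vK a).ne' (Real.rpow_pos_of_pos vL b).ne',
      Real.log_rpow vK, Real.log_rpow vL]
    have : Real.log W = a * Real.log W + b * Real.log W := by rw [← add_mul, hab, one_mul]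
    linarith
  calc volume K ^ a * volume L ^ b
      = ENNReal.ofReal ((volume K).toReal ^ a * (volume L).toReal ^ b) := by
        rw [ENNReal.ofReal_mul (by positivity), ← ENNReal.ofReal_rpow_of_pos vK,
          ← ENNReal.ofReal_rpow_of_pos vL, ENNReal.ofReal_toReal fK, ENNReal.ofReal_toReal fL]
    _ ≤ _ := ENNReal.ofReal_le_ofReal h5

end Vale.Agent.P227
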