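import Vale.Agent.P227.Fiber

namespace Vale.Agent.P227

open Set MeasureTheory

/-- splitting off the first two coordinates -/
def flipEquiv (m : ℕ) : ((ℝ × ℝ) × (Fin m → ℝ)) ≃ₗ[ℝ] (Fin (m + 2) → ℝ) where
  toFun z := Fin.cons z.1.1 (Fin.cons z.1.2 z.2)
  invFun f := ((f 0, f (Fin.succ 0)), fun j => f j.succ.succ)
  map_add' z w := by
    ext i
    refine Fin.cases ?_ (fun i => ?_) i
    · simp
    · refine Fin.cases ?_ (fun i => ?_) i <;> simp
  map_smul' c z := by
    ext i
    refine Fin.cases ?_ (fun i => ?_) i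
    · simp
    · refine Fin.cases ?_ (fun i => ?_) i <;> simp
  left_inv z := by
    ext <;> simp
  right_inv f := by
    ext i
    refine Fin.cases ?_ (fun i => ?_) i
    · simp
    · refine Fin.cases ?_ (fun i => ?_) i <;> simp

theorem flip_all {X : Type*} {m : ℕ} (S : Set (X × (Fin m → ℝ)))
    (h : ∀ x y j, (x, y) ∈ S → (x, Function.update y j (-y j)) ∈ S) (x : X) (y' : Fin m → ℝ)
    (s : Finset (Fin m)) : ∀ y, (x, y) ∈ S → (∀ j, |y' j| = |y j|) → (∀ j, j ∉ s → y' j = y j) →
      (x, y') ∈ S := by
  classical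
  induction s using Finset.induction_on with
  | empty =>
    intro y hy _ h2
    have : y' = y := funext fun j => h2 j (by simp)
    rwa [this]
  | insert k s _ ih =>
    intro y hy h1 h2
    rcases abs_eq_abs.1 (h1 k) with h3 | h3
    · refine ih y hy h1 fun j hj => ?_
      by_cases h4 : j = k
      · rw [h4, h3]
      · exact h2 j (by simp [h4, hj])
    · refine ih _ (h x y k hy) (fun j => ?_) fun j hj => ?_
      · by_cases h4 : j = k
        · rw [h4, Function.update_self, h3]
        · rw [Function.update_of_ne h4, h1]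
      · by_cases h4 : j = k
        · rw [h4, Function.update_self, h3]
        · rw [Function.update_of_ne h4]; exact h2 j (by simp [h4, hj])

theorem exists_frame {m : ℕ} (e : Module.Basis (Fin (m + 2)) ℝ (EuclideanSpace ℝ (Fin (m + 2)))) :
    ∃ T : ((ℝ × ℝ) × (Fin m → ℝ)) ≃L[ℝ] EuclideanSpace ℝ (Fin (m + 2)),
      ∀ K : Set (EuclideanSpace ℝ (Fin (m + 2))), (∀ x ∈ K, -x ∈ K) →
        (∀ i : Fin (m + 2), 2 ≤ i.val → ∀ x ∈ K, x - (2 * e.repr x i) • e i ∈ K) →
        Inv (T ⁻¹' K) := by
  classical
  set T0 := (flipEquiv m).trans e.equivFun.symm with hT0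
  have hr : ∀ z i, e.repr (T0 z) i = flipEquiv m z i := fun z i => by
    rw [← Module.Basis.equivFun_apply, hT0, LinearEquiv.trans_apply, LinearEquiv.apply_symm_apply]
  refine ⟨T0.toContinuousLinearEquiv, fun K hn hK => ?_⟩
  have h1 : ∀ x y j, (x, y) ∈ (T0.toContinuousLinearEquiv ⁻¹' K) →
      (x, Function.update y j (-y j)) ∈ (T0.toContinuousLinearEquiv ⁻¹' K) := by
    intro x y j hxy
    have h2 := hK j.succ.succ (by simp) _ hxy
    have h3 : T0 (x, Function.update y j (-y j)) =
        T0 (x, y) - (2 * e.repr (T0 (x, y)) j.succ.succ) • e j.succ.succ := by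
      refine e.ext_elem fun i => ?_
      rw [map_sub, map_smul, Finsupp.sub_apply, Finsupp.smul_apply, hr, hr, hr, e.repr_self,
        smul_eq_mul, Finsupp.single_apply]
      refine Fin.cases ?_ (fun i => ?_) i
      · simp [flipEquiv]
      · refine Fin.cases ?_ (fun i => ?_) i
        · rw [if_neg (fun h => Fin.succ_ne_zero _ (Fin.succ_injective _ h))]
          show x.2 = x.2 - 2 * y j * 0
          ring
        · by_cases h : j = i
          · subst h
            simp [flipEquiv]; ring
          · rw [if_neg (fun h' => h (Fin.succ_injective _ (Fin.succ_injective _ h')))]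
            show Function.update y j (-y j) i = y i - 2 * y j * 0
            rw [Function.update_of_ne (Ne.symm h)]
            ring
    show T0 _ ∈ K
    rw [h3]; exact h2
  intro x y y' hxy hy
  refine ⟨flip_all _ h1 x y' Finset.univ y hxy hy (by simp), ?_⟩
  have h2 := flip_all _ h1 x (-y') Finset.univ y hxy (fun j => by simp [hy j]) (by simp)
  have h3 := hn _ h2
  show T0 _ ∈ K
  have h4 : T0 (-x, y') = -T0 (x, -y') := by rw [← map_neg]; simp
  rw [h4]; exact h3

end Vale.Agent.P227
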