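import Vale.Agent.P227.Defs

namespace Vale.Agent.P227

open Set MeasureTheory
open scoped Pointwise

theorem det_add' (w x y : ℝ × ℝ) : det w (x + y) = det w x + det w y := by
  simp [det]; ring

theorem det_neg' (w x : ℝ × ℝ) : det w (-x) = -det w x := by
  simp [det]; ring

theorem det_smul' (w x : ℝ × ℝ) (c : ℝ) : det w (c • x) = c * det w x := by
  simp [det]; ring

theorem det_smul_left' (w x : ℝ × ℝ) (c : ℝ) : det (c • w) x = c * det w x := by
  simp [det]; ring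

theorem continuous_det' (w : ℝ × ℝ) : Continuous fun x => det w x := by
  unfold det; fun_prop

theorem Sym.zero : Sym ({0} : Set (ℝ × ℝ)) :=
  ⟨isCompact_singleton, convex_singleton _, singleton_nonempty _, fun x hx => by simpa using hx⟩

theorem Sym.seg (v : ℝ × ℝ) : Sym (seg v) := by
  refine ⟨?_, convex_segment _ _, ⟨v, right_mem_segment _ _ _⟩, ?_⟩
  · unfold P227.seg
    rw [segment_eq_image]
    exact isCompact_Icc.image (by fun_prop)
  · rintro x ⟨a, b, ha, hb, hab, rfl⟩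
    exact ⟨b, a, hb, ha, by linarith, by simp [add_comm]⟩

theorem Sym.add {M N : Set (ℝ × ℝ)} (hM : Sym M) (hN : Sym N) : Sym (M + N) := by
  refine ⟨hM.cpt.add hN.cpt, hM.cvx.add hN.cvx, hM.ne.add hN.ne, ?_⟩
  rintro _ ⟨x, hx, y, hy, rfl⟩
  exact ⟨-x, hM.neg x hx, -y, hN.neg y hy, by simp [add_comm]⟩

theorem Sym.sum {ι : Type*} (s : Finset ι) (v : ι → ℝ × ℝ) : Sym (∑ i ∈ s, P227.seg (v i)) := by
  classical
  induction s using Finset.induction_on with
  | empty => rw [Finset.sum_empty]; exact Sym.zero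
  | insert a s ha ih =>
    rw [Finset.sum_insert ha]
    exact (Sym.seg _).add ih

theorem Sym.le_hs {M : Set (ℝ × ℝ)} (hM : Sym M) (w : ℝ × ℝ) {x : ℝ × ℝ} (hx : x ∈ M) :
    det w x ≤ hs M w :=
  le_csSup (hM.cpt.image (continuous_det' w)).bddAbove ⟨x, hx, rfl⟩

theorem Sym.exists_hs {M : Set (ℝ × ℝ)} (hM : Sym M) (w : ℝ × ℝ) :
    ∃ x ∈ M, det w x = hs M w :=
  (hM.cpt.image (continuous_det' w)).sSup_mem (hM.ne.image _)

theorem Sym.abs_le_hs {M : Set (ℝ × ℝ)} (hM : Sym M) (w : ℝ × ℝ) {x : ℝ × ℝ} (hx : x ∈ M) :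
    |det w x| ≤ hs M w := by
  have h1 := hM.le_hs w hx
  have h2 := hM.le_hs w (hM.neg x hx)
  rw [det_neg'] at h2
  exact abs_le.2 ⟨by linarith, h1⟩

theorem Sym.hs_le {M : Set (ℝ × ℝ)} (hM : Sym M) (w : ℝ × ℝ) {s : ℝ}
    (h : ∀ x ∈ M, det w x ≤ s) : hs M w ≤ s := by
  obtain ⟨x, hx, e⟩ := hM.exists_hs w
  exact e ▸ h x hx

theorem Sym.hs_nonneg {M : Set (ℝ × ℝ)} (hM : Sym M) (w : ℝ × ℝ) : 0 ≤ hs M w := by
  obtain ⟨x, hx⟩ := hM.ne
  exact (abs_nonneg _).trans (hM.abs_le_hs w hx)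

theorem Sym.image_det {M : Set (ℝ × ℝ)} (hM : Sym M) (w : ℝ × ℝ) :
    (fun x => det w x) '' M = Icc (-hs M w) (hs M w) := by
  apply Subset.antisymm
  · rintro _ ⟨x, hx, rfl⟩
    exact abs_le.1 (hM.abs_le_hs w hx)
  · obtain ⟨x, hx, e⟩ := hM.exists_hs w
    refine (hM.cvx.isPreconnected.image _ (continuous_det' w).continuousOn).Icc_subset
      ⟨-x, hM.neg x hx, ?_⟩ ⟨x, hx, e⟩
    show det w (-x) = _
    rw [det_neg', e]

theorem Sym.hs_add {M N : Set (ℝ × ℝ)} (hM : Sym M) (hN : Sym N) (w : ℝ × ℝ) :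
    hs (M + N) w = hs M w + hs N w := by
  apply le_antisymm
  · refine (hM.add hN).hs_le w ?_
    rintro _ ⟨x, hx, y, hy, rfl⟩
    show det w (x + y) ≤ _
    rw [det_add']
    exact add_le_add (hM.le_hs w hx) (hN.le_hs w hy)
  · obtain ⟨x, hx, e⟩ := hM.exists_hs w
    obtain ⟨y, hy, e'⟩ := hN.exists_hs w
    rw [← e, ← e', ← det_add']
    exact (hM.add hN).le_hs w ⟨x, hx, y, hy, rfl⟩

theorem hs_seg (v w : ℝ × ℝ) : hs (seg v) w = |det w v| := by
  apply le_antisymm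
  · refine (Sym.seg v).hs_le w ?_
    rintro _ ⟨a, b, ha, hb, hab, rfl⟩
    rw [det_add', det_smul', det_smul', det_neg']
    have h1 := le_abs_self (det w v)
    have h2 := neg_le_abs (det w v)
    have h3 := mul_le_mul_of_nonneg_left h1 hb
    have h4 := mul_le_mul_of_nonneg_left h2 ha
    have h5 : a * |det w v| + b * |det w v| = |det w v| := by rw [← add_mul, hab, one_mul]
    linarith
  · exact (Sym.seg v).abs_le_hs w (right_mem_segment _ _ _)

theorem hs_zero (w : ℝ × ℝ) : hs ({0} : Set (ℝ × ℝ)) w = 0 := by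
  simp [hs, det]

theorem hs_sum {ι : Type*} (s : Finset ι) (v : ι → ℝ × ℝ) (w : ℝ × ℝ) :
    hs (∑ i ∈ s, seg (v i)) w = ∑ i ∈ s, |det w (v i)| := by
  classical
  induction s using Finset.induction_on with
  | empty => rw [Finset.sum_empty, Finset.sum_empty]; exact hs_zero w
  | insert a s ha ih =>
    rw [Finset.sum_insert ha, Finset.sum_insert ha, (Sym.seg _).hs_add (Sym.sum s v), hs_seg, ih]

theorem Sym.hs_smul {M : Set (ℝ × ℝ)} (hM : Sym M) {c : ℝ} (hc : 0 ≤ c) (w : ℝ × ℝ) :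
    hs M (c • w) = c * hs M w := by
  apply le_antisymm
  · refine hM.hs_le _ fun x hx => ?_
    rw [det_smul_left']
    exact mul_le_mul_of_nonneg_left (hM.le_hs w hx) hc
  · obtain ⟨x, hx, e⟩ := hM.exists_hs w
    rw [← e, ← det_smul_left']
    exact hM.le_hs _ hx

theorem Sym.hs_pos {M : Set (ℝ × ℝ)} (hM : Sym M) (h0 : volume M ≠ 0) {w : ℝ × ℝ} (hw : w ≠ 0) :
    0 < hs M w := by
  refine (hM.hs_nonneg w).lt_of_ne fun h => h0 ?_
  let φ : (ℝ × ℝ) →ₗ[ℝ] ℝ :=
    { toFun := fun x => det w x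
      map_add' := det_add' w
      map_smul' := fun c x => det_smul' w x c }
  have hne : LinearMap.ker φ ≠ ⊤ := by
    intro ht
    have h1 : φ (-w.2, w.1) = 0 := by
      rw [← LinearMap.mem_ker, ht]; trivial
    have h2 : w.1 * w.1 + w.2 * w.2 = 0 := by
      have : φ (-w.2, w.1) = w.1 * w.1 + w.2 * w.2 := by
        show det w (-w.2, w.1) = _
        simp [det]
      rw [← this, h1]
    apply hw
    have h3 : w.1 = 0 := by nlinarith [mul_self_nonneg w.1, mul_self_nonneg w.2]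
    have h4 : w.2 = 0 := by nlinarith [mul_self_nonneg w.1, mul_self_nonneg w.2]
    exact Prod.ext h3 h4
  refine measure_mono_null (fun x hx => ?_) (Measure.addHaar_submodule volume _ hne)
  have := hM.abs_le_hs w hx
  rw [← h] at this
  exact abs_nonpos_iff.1 this

end Vale.Agent.P227
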