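import Mathlib

namespace Vale.Agent.P227

/-- a linear complementarity solution from maximising a quadratic form on a simplex -/
theorem kkt {ι : Type*} [Fintype ι] (A : ι → ι → ℝ) (hA : ∀ i j, A i j = A j i)
    (h0 : ∀ i j, 0 ≤ A i j) (hne : ∃ i j, 0 < A i j) (f : ι → ℝ) (hf : ∀ i, 0 < f i) :
    ∃ c : ι → ℝ, (∀ i, 0 ≤ c i) ∧ (∃ i, c i ≠ 0) ∧ (∀ i, ∑ j, c j * A i j ≤ f i) ∧
      ∀ i, c i ≠ 0 → ∑ j, c j * A i j = f i := by
  classical
  obtain ⟨i₀, j₀, hij⟩ := hne
  have : Nonempty ι := ⟨i₀⟩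
  set B : ι → ι → ℝ := fun i j => A i j / (f i * f j) with hB
  have hBs : ∀ i j, B i j = B j i := fun i j => by simp only [hB]; rw [hA i j, mul_comm]
  have hB0 : ∀ i j, 0 ≤ B i j := fun i j => div_nonneg (h0 i j) (mul_pos (hf i) (hf j)).le
  set q : (ι → ℝ) → ℝ := fun u => ∑ i, u i * ∑ j, u j * B i j with hq
  have hqc : Continuous q := by simp only [hq]; fun_prop
  have hn : (0 : ℝ) < Fintype.card ι := by exact_mod_cast Fintype.card_pos
  have hv : (fun _ : ι => (Fintype.card ι : ℝ)⁻¹) ∈ stdSimplex ℝ ι :=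
    ⟨fun _ => by positivity, by simp [hn.ne']⟩
  obtain ⟨u, hu, hmax⟩ := (isCompact_stdSimplex ℝ ι).exists_isMaxOn ⟨_, hv⟩ hqc.continuousOn
  set Q := q u with hQ
  set g : ι → ℝ := fun i => ∑ j, u j * B i j with hg
  have hQg : Q = ∑ i, u i * g i := rfl
  have hQ0 : 0 < Q := by
    refine lt_of_lt_of_le ?_ (hmax hv)
    simp only [hq]
    refine Finset.sum_pos' (fun i _ => mul_nonneg (by positivity)
      (Finset.sum_nonneg fun j _ => mul_nonneg (by positivity) (hB0 i j))) ⟨i₀, Finset.mem_univ _, ?_⟩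
    refine mul_pos (by positivity) (Finset.sum_pos' (fun j _ => mul_nonneg (by positivity) (hB0 _ j))
      ⟨j₀, Finset.mem_univ _, mul_pos (by positivity) (div_pos hij (mul_pos (hf _) (hf _)))⟩)
  have hle : ∀ k, g k ≤ Q := by
    intro k
    by_contra hlt
    push Not at hlt
    have hg0 : 0 < g k := by linarith
    set s := (g k - Q) / (2 * g k) with hs
    have hs0 : 0 < s := div_pos (by linarith) (by linarith)
    have hs1 : s < 1 := by rw [hs, div_lt_one (by linarith)]; linarith
    have hsg : s * (2 * g k) = g k - Q := by rw [hs]; field_simp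
    set w : ι → ℝ := fun i => (1 - s) * u i + s * (if i = k then 1 else 0) with hw
    have hwm : w ∈ stdSimplex ℝ ι := by
      refine ⟨fun i => add_nonneg (mul_nonneg (by linarith) (hu.1 i))
        (mul_nonneg hs0.le (by split_ifs <;> norm_num)), ?_⟩
      simp only [hw]
      rw [Finset.sum_add_distrib, ← Finset.mul_sum, ← Finset.mul_sum, hu.2]
      simp
    have h1 : ∀ i, ∑ j, w j * B i j = (1 - s) * g i + s * B i k := by
      intro i
      simp only [hw, hg, add_mul, Finset.sum_add_distrib, mul_assoc, ← Finset.mul_sum]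
      simp
    have h2 : ∑ i, u i * B i k = g k := Finset.sum_congr rfl fun i _ => by rw [hBs i k]
    have h3 : q w = (1 - s) ^ 2 * Q + 2 * s * (1 - s) * g k + s ^ 2 * B k k := by
      simp only [hq, h1]
      have h4 : ∀ i, w i * ((1 - s) * g i + s * B i k) =
          (1 - s) ^ 2 * (u i * g i) + s * (1 - s) * (u i * B i k) +
            (if i = k then s * ((1 - s) * g i + s * B i k) else 0) := by
        intro i
        simp only [hw]
        split_ifs <;> ring
      simp only [h4, Finset.sum_add_distrib, ← Finset.mul_sum, h2, ← hQg, Finset.sum_ite_eq',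
        Finset.mem_univ, if_true]
      ring
    have h5 : q w ≤ Q := hmax hwm
    have h6 : 0 ≤ s ^ 2 * B k k := mul_nonneg (sq_nonneg _) (hB0 k k)
    have h7 : s * (2 * (1 - s) * g k - (2 - s) * Q) ≤ 0 := by nlinarith
    have h8 : 2 * (1 - s) * g k - (2 - s) * Q ≤ 0 := by
      by_contra h9
      push Not at h9
      linarith [mul_pos hs0 h9]
    nlinarith [mul_pos hs0 hQ0]
  have heq : ∀ k, u k * (Q - g k) = 0 := by
    have h1 : ∑ k, u k * (Q - g k) = 0 := by
      simp only [mul_sub, Finset.sum_sub_distrib, ← Finset.sum_mul, hu.2, ← hQg]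
      ring
    intro k
    exact (Finset.sum_eq_zero_iff_of_nonneg fun i _ =>
      mul_nonneg (hu.1 i) (sub_nonneg.2 (hle i))).1 h1 k (Finset.mem_univ _)
  have hc : ∀ i, ∑ j, u j / (f j * Q) * A i j = f i * (g i / Q) := by
    intro i
    simp only [hg, hB, Finset.sum_div, Finset.mul_sum]
    refine Finset.sum_congr rfl fun j _ => ?_
    have := (hf i).ne'
    have := (hf j).ne'
    field_simp
  refine ⟨fun j => u j / (f j * Q), fun i => div_nonneg (hu.1 i) (mul_pos (hf i) hQ0).le, ?_,
    fun i => ?_, fun i hi => ?_⟩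
  · by_contra hno
    push Not at hno
    have h1 : ∀ i, u i = 0 := fun i => by
      rcases div_eq_zero_iff.1 (hno i) with h | h
      · exact h
      · exact absurd h (mul_pos (hf i) hQ0).ne'
    have h2 := hu.2
    simp [h1] at h2
  · rw [hc]
    exact mul_le_of_le_one_right (hf i).le ((div_le_one hQ0).2 (hle i))
  · rw [hc]
    have h1 : u i ≠ 0 := fun h => hi (by simp [h])
    have h2 : g i = Q := by
      rcases mul_eq_zero.1 (heq i) with h | h
      · exact absurd h h1
      · linarith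
    rw [h2, div_self hQ0.ne', mul_one]

/-- chord inequality for the logarithm -/
theorem chord {ι : Type*} [Fintype ι] (p x : ι → ℝ) (ρ : ℝ) (hρ : 0 < ρ) (hp : ∀ i, 0 ≤ p i)
    (h1 : ∑ i, p i = 1) (hx : ∀ i, p i ≠ 0 → 0 < x i)
    (hq : ∀ i, p i ≠ 0 → x i ^ 2 - 2 * (∑ j, p j * x j) * x i + ρ ≤ 0) :
    Real.log ρ / 2 ≤ ∑ i, p i * Real.log (x i) := by
  set m := ∑ j, p j * x j with hm
  obtain ⟨i₀, hi₀⟩ : ∃ i, p i ≠ 0 := by
    by_contra hno
    push Not at hno
    simp [hno] at h1
  have hm0 : 0 < m := by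
    have h2 := hq i₀ hi₀
    have h3 := hx i₀ hi₀
    by_contra h4
    push Not at h4
    nlinarith [mul_nonneg (neg_nonneg.2 h4) h3.le, sq_nonneg (x i₀)]
  have hD : 0 ≤ m ^ 2 - ρ := by nlinarith [hq i₀ hi₀, sq_nonneg (x i₀ - m)]
  set d := Real.sqrt (m ^ 2 - ρ) with hd
  have hd0 : 0 ≤ d := Real.sqrt_nonneg _
  have hd2 : d ^ 2 = m ^ 2 - ρ := Real.sq_sqrt hD
  have hr : 0 < m - d := by nlinarith
  have hR : 0 < m + d := by linarith
  have hlog : Real.log ρ = Real.log (m - d) + Real.log (m + d) := by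
    rw [← Real.log_mul hr.ne' hR.ne']
    congr 1
    nlinarith
  have hin : ∀ i, p i ≠ 0 → |x i - m| ≤ d := fun i hi =>
    abs_le_of_sq_le_sq' (by nlinarith [hq i hi]) hd0 |> abs_le.2
  set k := (Real.log (m + d) - Real.log (m - d)) / (2 * d) with hk
  have key : ∀ i, p i * (Real.log ρ / 2 + k * (x i - m)) ≤ p i * Real.log (x i) := by
    intro i
    by_cases hi : p i = 0
    · simp [hi]
    refine mul_le_mul_of_nonneg_left ?_ (hp i)
    obtain ⟨h2, h3⟩ := abs_le.1 (hin i hi)
    rcases hd0.eq_or_lt with h4 | h4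
    · have h5 : x i = m := by linarith
      rw [hlog, h5, ← h4]
      simp
    · set t := (x i - (m - d)) / (2 * d) with ht
      have ht0 : 0 ≤ t := div_nonneg (by linarith) (by linarith)
      have ht1 : t ≤ 1 := by rw [ht, div_le_one (by linarith)]; linarith
      have h5 := strictConcaveOn_log_Ioi.concaveOn.2 (Set.mem_Ioi.2 hr) (Set.mem_Ioi.2 hR)
        (sub_nonneg.2 ht1) ht0 (by ring)
      simp only [smul_eq_mul] at h5
      have h6 : (1 - t) * (m - d) + t * (m + d) = x i := by rw [ht]; field_simp; ring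
      rw [h6] at h5
      refine le_trans (le_of_eq ?_) h5
      rw [hlog, hk, ht]
      field_simp
      ring
  refine le_trans (le_of_eq ?_) (Finset.sum_le_sum fun i _ => key i)
  have h7 : ∀ i, p i * (Real.log ρ / 2 + k * (x i - m)) =
      p i * (Real.log ρ / 2 - k * m) + k * (p i * x i) := fun i => by ring
  simp only [h7, Finset.sum_add_distrib, ← Finset.sum_mul, ← Finset.mul_sum, h1, ← hm]
  ring

end Vale.Agent.P227
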