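import Vale.Agent.P227.VolZ
import Vale.Agent.P227.KKT

namespace Vale.Agent.P227

open Set MeasureTheory
open scoped Pointwise

/-- logarithmic Minkowski inequality at a zonogon -/
theorem logMink {ι : Type*} [Fintype ι] {K : Set (ℝ × ℝ)} (hK : Sym K) (h0 : volume K ≠ 0)
    (w : ι → ℝ × ℝ) (hw : ∀ i, w i ≠ 0) (c h : ι → ℝ) (hc : ∀ i, 0 ≤ c i)
    (hh : ∀ i, c i ≠ 0 → ∑ j, c j * |det (w i) (w j)| = h i) (hpos : ∀ i, 0 < h i)
    (W : ℝ) (hW : W = 2 * ∑ i, c i * h i) (hW0 : 0 < W) :
    Real.log ((volume K).toReal / W) / 2 ≤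
      ∑ i, 2 * c i * h i / W * Real.log (hs K (w i) / h i) := by
  have hfin : volume K ≠ ⊤ := hK.cpt.measure_lt_top.ne
  have hV : 0 < (volume K).toReal := ENNReal.toReal_pos h0 hfin
  have hx : ∀ i, 0 < hs K (w i) / h i := fun i => div_pos (hK.hs_pos h0 (hw i)) (hpos i)
  have hdl : ∀ (a : ℝ) (u v : ℝ × ℝ), 0 ≤ a → |det u (a • v)| = a * |det u v| := by
    intro a u v ha
    rw [← abs_of_nonneg ha, ← abs_mul, abs_of_nonneg ha]
    congr 1
    simp [det]; ring
  refine chord (fun i => 2 * c i * h i / W) (fun i => hs K (w i) / h i) _ (div_pos hV hW0)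
    (fun i => div_nonneg (mul_nonneg (mul_nonneg (by norm_num) (hc i)) (hpos i).le) hW0.le)
    ?_ (fun i _ => hx i) ?_
  · rw [← Finset.sum_div, div_eq_one_iff_eq hW0.ne', hW, Finset.mul_sum]
    exact Finset.sum_congr rfl fun i _ => by ring
  · intro i hi
    have hci : c i ≠ 0 := fun h1 => hi (by simp [h1])
    set s := hs K (w i) / h i with hs'
    have hs0 : 0 < s := hx i
    have hZ : Sym (∑ j, seg ((s * c j) • w j)) := Sym.sum _ _
    have h1 : hs K (w i) = hs (∑ j, seg ((s * c j) • w j)) (w i) := by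
      rw [hs_sum, Finset.sum_congr rfl fun j _ => hdl _ _ _ (mul_nonneg hs0.le (hc j))]
      simp only [mul_assoc]
      rw [← Finset.mul_sum, hh i hci, hs', div_mul_cancel₀ _ (hpos i).ne']
    have h2 : 2 * ∑ a, ∑ b, |det ((s * c a) • w a) ((s * c b) • w b)| = s ^ 2 * W := by
      rw [hW, mul_left_comm, Finset.mul_sum (a := s ^ 2)]
      congr 1
      refine Finset.sum_congr rfl fun a _ => ?_
      have h3 : ∀ b, |det ((s * c a) • w a) ((s * c b) • w b)| =
          s ^ 2 * c a * (c b * |det (w a) (w b)|) := by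
        intro b
        rw [hdl _ _ _ (mul_nonneg hs0.le (hc b)), abs_det_comm,
          hdl _ _ _ (mul_nonneg hs0.le (hc a)), abs_det_comm]
        ring
      rw [Finset.sum_congr rfl fun b _ => h3 b, ← Finset.mul_sum]
      by_cases ha : c a = 0
      · simp [ha]
      · rw [hh a ha]; ring
    have h4 : ∑ j, hs K ((s * c j) • w j) = s * ∑ j, c j * hs K (w j) := by
      rw [Finset.mul_sum]
      exact Finset.sum_congr rfl fun j _ => by
        rw [hK.hs_smul (mul_nonneg hs0.le (hc j))]; ring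
    have h5 := slice hK hZ (hw i) h1
    rw [vol_add_zono hK, vol_zono, h2, h4] at h5
    have hS : 0 ≤ ∑ j, c j * hs K (w j) :=
      Finset.sum_nonneg fun j _ => mul_nonneg (hc j) (hK.hs_nonneg _)
    have hA : 0 ≤ s ^ 2 * W := by positivity
    have hB : 0 ≤ 4 * (s * ∑ j, c j * hs K (w j)) + s ^ 2 * W := by positivity
    have h6 := ENNReal.toReal_mono (ENNReal.add_ne_top.2 ⟨hfin, ENNReal.ofReal_ne_top⟩) h5
    rw [ENNReal.toReal_mul, ENNReal.toReal_add hfin ENNReal.ofReal_ne_top,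
      ENNReal.toReal_add hfin ENNReal.ofReal_ne_top, ENNReal.toReal_ofReal hA,
      ENNReal.toReal_ofReal hB] at h6
    have h7 : ∑ j, 2 * c j * h j / W * (hs K (w j) / h j) = 2 * (∑ j, c j * hs K (w j)) / W := by
      rw [Finset.mul_sum, Finset.sum_div]
      refine Finset.sum_congr rfl fun j _ => ?_
      have := (hpos j).ne'
      field_simp
    rw [h7]
    have h8 : s ^ 2 - 2 * (2 * (∑ j, c j * hs K (w j)) / W) * s + (volume K).toReal / W =
        (s ^ 2 * W - 4 * (s * ∑ j, c j * hs K (w j)) + (volume K).toReal) / W := by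
      field_simp
      ring
    rw [h8]
    apply div_nonpos_of_nonpos_of_nonneg _ hW0.le
    norm_num at h6
    linarith

end Vale.Agent.P227
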