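import Vale.Agent.P230.PLw
import Vale.Agent.P227H.MulPL

namespace Vale.Agent.P227

open Set MeasureTheory
open scoped ENNReal

theorem mpl_one {a b : ℝ} (ha : 0 < a) (hb : 0 < b) (hab : a + b = 1) (F G H : ℝ → ℝ≥0∞)
    (hF : Measurable F) (hG : Measurable G) (hH : Measurable H)
    (h : ∀ x y z : ℝ, |z| = |x| ^ a * |y| ^ b → F x ^ a * G y ^ b ≤ H z) :
    (∫⁻ x, F x) ^ a * (∫⁻ x, G x) ^ b ≤ ∫⁻ x, H x := by
  have h1 := P227H.mul_pl ha hb hab (f := fun s => max (F s) (F (-s)))
    (g := fun s => max (G s) (G (-s))) (h := fun s => min (H s) (H (-s)))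
    (hF.max (hF.comp measurable_neg)) (hG.max (hG.comp measurable_neg))
    (hH.min (hH.comp measurable_neg)) (by
      intro s t hs ht
      have hz : 0 < s ^ a * t ^ b := by positivity
      have key : ∀ x y : ℝ, |x| = s → |y| = t →
          F x ^ a * G y ^ b ≤ min (H (s ^ a * t ^ b)) (H (-(s ^ a * t ^ b))) := by
        intro x y hx hy
        refine le_min (h x y _ ?_) (h x y _ ?_)
        · rw [hx, hy, abs_of_pos hz]
        · rw [hx, hy, abs_neg, abs_of_pos hz]
      have s1 : |s| = s := abs_of_pos hs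
      have s2 : |(-s)| = s := by rw [abs_neg, s1]
      have t1 : |t| = t := abs_of_pos ht
      have t2 : |(-t)| = t := by rw [abs_neg, t1]
      rcases max_choice (F s) (F (-s)) with e1 | e1 <;>
        rcases max_choice (G t) (G (-t)) with e2 | e2 <;> rw [e1, e2]
      · exact key _ _ s1 t1
      · exact key _ _ s1 t2
      · exact key _ _ s2 t1
      · exact key _ _ s2 t2)
  have up : ∀ f : ℝ → ℝ≥0∞, ∫⁻ x, f x ≤ 2 * ∫⁻ t in Ioi (0 : ℝ), max (f t) (f (-t)) := by
    intro f
    rw [P227H.lintegral_split f, two_mul]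
    exact add_le_add (lintegral_mono fun t => le_max_left _ _)
      (lintegral_mono fun t => le_max_right _ _)
  have low : 2 * ∫⁻ t in Ioi (0 : ℝ), min (H t) (H (-t)) ≤ ∫⁻ x, H x := by
    rw [P227H.lintegral_split H, two_mul]
    exact add_le_add (lintegral_mono fun t => min_le_left _ _)
      (lintegral_mono fun t => min_le_right _ _)
  refine le_trans (mul_le_mul' (ENNReal.rpow_le_rpow (up F) ha.le)
    (ENNReal.rpow_le_rpow (up G) hb.le)) (le_trans ?_ low)
  rw [ENNReal.mul_rpow_of_nonneg _ _ ha.le, ENNReal.mul_rpow_of_nonneg _ _ hb.le,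
    mul_mul_mul_comm, ← ENNReal.rpow_add _ _ (by norm_num) (by norm_num), hab, ENNReal.rpow_one]
  exact mul_le_mul_right h1 _

theorem MPL_cons {n : ℕ} {F : (Fin (n + 1) → ℝ) → ℝ≥0∞} (hF : Measurable F) :
    ∫⁻ x, F x = ∫⁻ t : ℝ, ∫⁻ y : Fin n → ℝ, F (Fin.cons t y) := by
  have h := (volume_preserving_piFinSuccAbove (fun _ : Fin (n + 1) => ℝ) 0).symm
  rw [← h.lintegral_comp hF]
  have e : ∀ p : ℝ × (Fin n → ℝ),
      (MeasurableEquiv.piFinSuccAbove (fun _ : Fin (n + 1) => ℝ) 0).symm p =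
        (Fin.cons p.1 p.2 : Fin (n + 1) → ℝ) := by
    intro p
    simp [MeasurableEquiv.piFinSuccAbove, Fin.insertNthEquiv, Fin.insertNth_zero']
  rw [lintegral_congr (g := fun p : ℝ × (Fin n → ℝ) => F (Fin.cons p.1 p.2)) fun p => by rw [e p],
    Measure.volume_eq_prod]
  exact lintegral_prod _ (hF.comp P227H.measurable_cons).aemeasurable

theorem mpl {a b : ℝ} (ha : 0 < a) (hb : 0 < b) (hab : a + b = 1) (m : ℕ)
    (F G H : (Fin m → ℝ) → ℝ≥0∞) (hF : Measurable F) (hG : Measurable G) (hH : Measurable H)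
    (h : ∀ x y z : Fin m → ℝ, (∀ j, |z j| = |x j| ^ a * |y j| ^ b) → F x ^ a * G y ^ b ≤ H z) :
    (∫⁻ x, F x) ^ a * (∫⁻ x, G x) ^ b ≤ ∫⁻ x, H x := by
  induction m with
  | zero =>
    have hv : (volume : Measure (Fin 0 → ℝ)) univ = 1 := by
      rw [volume_pi, Measure.pi_univ]; simp
    rw [lintegral_unique, lintegral_unique, lintegral_unique, hv, mul_one, mul_one, mul_one]
    exact h _ _ _ fun j => j.elim0
  | succ m ih =>
    rw [MPL_cons hF, MPL_cons hG, MPL_cons hH]
    have mc : ∀ t : ℝ, Measurable fun y : Fin m → ℝ => (Fin.cons t y : Fin (m + 1) → ℝ) :=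
      fun t => P227H.measurable_cons.comp (measurable_prodMk_left (x := t))
    refine mpl_one ha hb hab _ _ _
      (hF.comp P227H.measurable_cons).lintegral_prod_right'
      (hG.comp P227H.measurable_cons).lintegral_prod_right'
      (hH.comp P227H.measurable_cons).lintegral_prod_right' fun x y z hz => ?_
    refine ih _ _ _ (hF.comp (mc x)) (hG.comp (mc y)) (hH.comp (mc z)) fun x' y' z' hz' => ?_
    refine h _ _ _ fun j => ?_
    refine Fin.cases ?_ (fun i => ?_) j
    · simpa using hz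
    · simpa using hz' i

end Vale.Agent.P227
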