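import Vale.Agent.P227.MainP
import Vale.Agent.P227.Flip

namespace Vale.Agent.P227

open Set MeasureTheory

theorem mainE {m : ℕ} (e : Module.Basis (Fin (m + 2)) ℝ (EuclideanSpace ℝ (Fin (m + 2))))
    {K L : Set (EuclideanSpace ℝ (Fin (m + 2)))} (cK : IsCompact K) (cL : IsCompact L)
    (vK : Convex ℝ K) (vL : Convex ℝ L) (nK : ∀ x ∈ K, -x ∈ K) (nL : ∀ x ∈ L, -x ∈ L)
    (rK : ∀ i : Fin (m + 2), 2 ≤ i.val → ∀ x ∈ K, x - (2 * e.repr x i) • e i ∈ K)
    (rL : ∀ i : Fin (m + 2), 2 ≤ i.val → ∀ x ∈ L, x - (2 * e.repr x i) • e i ∈ L)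
    {a b : ℝ} (ha : 0 < a) (hb : 0 < b) (hab : a + b = 1) :
    volume K ^ a * volume L ^ b ≤ volume (LW a b K L) := by
  obtain ⟨T, hT⟩ := exists_frame e
  have hprod : (volume : Measure ((ℝ × ℝ) × (Fin m → ℝ))).IsAddHaarMeasure :=
    Measure.prod.instIsAddHaarMeasure _ _
  have hH : (Measure.map T (volume : Measure ((ℝ × ℝ) × (Fin m → ℝ)))).IsAddHaarMeasure :=
    T.isAddHaarMeasure_map _
  obtain ⟨c, hc0, hc⟩ : ∃ c : NNReal, 0 < c ∧
      Measure.map T (volume : Measure ((ℝ × ℝ) × (Fin m → ℝ))) = c • volume :=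
    ⟨_, Measure.addHaarScalarFactor_pos_of_isAddHaarMeasure _ _,
      Measure.isAddLeftInvariant_eq_smul _ _⟩
  have key : ∀ S : Set (EuclideanSpace ℝ (Fin (m + 2))), MeasurableSet S →
      volume (T ⁻¹' S) = (c : ENNReal) * volume S := by
    intro S hS
    rw [← Measure.map_apply T.continuous.measurable hS, hc, Measure.smul_apply]
    rfl
  have h1 := mainP (T.toHomeomorph.isCompact_preimage.2 cK) (T.toHomeomorph.isCompact_preimage.2 cL)
    (vK.linear_preimage (T : ((ℝ × ℝ) × (Fin m → ℝ)) →ₗ[ℝ] _))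
    (vL.linear_preimage (T : ((ℝ × ℝ) × (Fin m → ℝ)) →ₗ[ℝ] _)) (hT K nK rK) (hT L nL rL) ha hb hab
  have h2 : LW a b (T ⁻¹' K) (T ⁻¹' L) ⊆ T ⁻¹' LW a b K L := by
    intro x hx φ s t hs ht h3 h4
    exact hx (φ.comp T.toContinuousLinearMap) s t hs ht (fun y hy => h3 (T y) hy) (fun y hy => h4 (T y) hy)
  have h3 : volume (T ⁻¹' K) ^ a * volume (T ⁻¹' L) ^ b ≤ volume (T ⁻¹' LW a b K L) :=
    h1.trans (measure_mono h2)
  rw [key K cK.measurableSet, key L cL.measurableSet, key _ (isClosed_LW a b K L).measurableSet,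
    ENNReal.mul_rpow_of_nonneg _ _ ha.le, ENNReal.mul_rpow_of_nonneg _ _ hb.le,
    mul_mul_mul_comm, ← ENNReal.rpow_add_of_nonneg _ _ ha.le hb.le, hab, ENNReal.rpow_one] at h3
  exact (ENNReal.mul_le_mul_iff_right (by exact_mod_cast hc0.ne') ENNReal.coe_ne_top).1 h3

end Vale.Agent.P227
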