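import Vale.Agent.P227.Planar
import Vale.Agent.P227.MPL
import Vale.Agent.P227.Fiber

namespace Vale.Agent.P227

open Set MeasureTheory

lemma mainP_vol {m : ℕ} {S : Set ((ℝ × ℝ) × (Fin m → ℝ))} (hS : MeasurableSet S) :
    volume S = ∫⁻ y : Fin m → ℝ, volume {x : ℝ × ℝ | (x, y) ∈ S} := by
  rw [Measure.volume_eq_prod, Measure.prod_apply_symm hS]
  rfl

lemma mainP_meas {m : ℕ} {S : Set ((ℝ × ℝ) × (Fin m → ℝ))} (hS : MeasurableSet S) :
    Measurable fun y : Fin m → ℝ => volume {x : ℝ × ℝ | (x, y) ∈ S} :=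
  measurable_measure_prodMk_right hS

lemma mainP_sym {m : ℕ} {K : Set ((ℝ × ℝ) × (Fin m → ℝ))} (cK : IsCompact K) (vK : Convex ℝ K)
    (hK : Inv K) (y : Fin m → ℝ) (k0 : {x | (x, y) ∈ K}.Nonempty) :
    Sym {x | (x, y) ∈ K} := by
  refine ⟨?_, ?_, k0, ?_⟩
  · have h1 : IsClosed {x : ℝ × ℝ | (x, y) ∈ K} :=
      cK.isClosed.preimage (continuous_id.prodMk continuous_const)
    refine (cK.image continuous_fst).of_isClosed_subset h1 ?_
    intro x hx
    exact ⟨(x, y), hx, rfl⟩
  · intro x hx x' hx' s t hs ht hst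
    have h := vK hx hx' hs ht hst
    have e : s • (x, y) + t • (x', y) = (s • x + t • x', y) := by
      ext1
      · rfl
      · show s • y + t • y = y
        rw [← add_smul, hst, one_smul]
    rw [e] at h
    exact h
  · intro x hx
    exact (hK x y y hx fun _ => rfl).2

theorem mainP {m : ℕ} {K L : Set ((ℝ × ℝ) × (Fin m → ℝ))} (cK : IsCompact K) (cL : IsCompact L)
    (vK : Convex ℝ K) (vL : Convex ℝ L) (hK : Inv K) (hL : Inv L)
    {a b : ℝ} (ha : 0 < a) (hb : 0 < b) (hab : a + b = 1) :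
    volume K ^ a * volume L ^ b ≤ volume (LW a b K L) := by
  have mK : MeasurableSet K := cK.isClosed.measurableSet
  have mL : MeasurableSet L := cL.isClosed.measurableSet
  have mW : MeasurableSet (LW a b K L) := (isClosed_LW a b K L).measurableSet
  rw [mainP_vol mK, mainP_vol mL, mainP_vol mW]
  refine mpl ha hb hab m _ _ _ (mainP_meas mK) (mainP_meas mL) (mainP_meas mW) ?_
  intro y y' z hz
  rcases eq_empty_or_nonempty {x : ℝ × ℝ | (x, y) ∈ K} with k0 | k0
  · rw [k0, measure_empty, ENNReal.zero_rpow_of_pos ha, zero_mul]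
    exact zero_le
  rcases eq_empty_or_nonempty {x : ℝ × ℝ | (x, y') ∈ L} with l0 | l0
  · rw [l0, measure_empty, ENNReal.zero_rpow_of_pos hb, mul_zero]
    exact zero_le
  refine (planar (mainP_sym cK vK hK y k0) (mainP_sym cL vL hL y' l0) ha hb hab).trans ?_
  exact measure_mono fun x hx => fiber_mem hK hL ha hb hab hz k0 l0 hx

end Vale.Agent.P227
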