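import Vale.Agent.P227.FinW

namespace Vale.Agent.P227

open Set MeasureTheory
open scoped Pointwise

theorem planar_sep {K L : Set (ℝ × ℝ)} (hK : Sym K) (hL : Sym L)
    {a b : ℝ} (ha : 0 < a) (hb : 0 < b) {x : ℝ × ℝ} (hx : x ∉ LW a b K L) :
    ∃ w : ℝ × ℝ, w ≠ 0 ∧ hs K w ^ a * hs L w ^ b < |det w x| := by
  simp only [LW, mem_ofPred_eq, not_forall, not_le] at hx
  obtain ⟨φ, s, t, hs0, ht0, h1, h2, h3⟩ := hx
  have e : ∀ y : ℝ × ℝ, det (φ (0, 1), -φ (1, 0)) y = φ y := by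
    intro y
    have e1 : y = y.1 • ((1 : ℝ), (0 : ℝ)) + y.2 • ((0 : ℝ), (1 : ℝ)) := by
      ext <;> simp
    conv_rhs => rw [e1, map_add, map_smul, map_smul]
    simp only [det, smul_eq_mul]
    ring
  have h4 : 0 ≤ s ^ a * t ^ b := by positivity
  refine ⟨(φ (0, 1), -φ (1, 0)), fun h => ?_, ?_⟩
  · have h5 := e x
    rw [h] at h5
    simp only [det, Prod.fst_zero, Prod.snd_zero, zero_mul, sub_zero] at h5
    linarith
  · have h5 := hK.hs_le (φ (0, 1), -φ (1, 0)) (s := s) fun y hy => by rw [e]; exact h1 y hy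
    have h6 := hL.hs_le (φ (0, 1), -φ (1, 0)) (s := t) fun y hy => by rw [e]; exact h2 y hy
    have h7 := mul_le_mul (Real.rpow_le_rpow (hK.hs_nonneg _) h5 ha.le)
      (Real.rpow_le_rpow (hL.hs_nonneg _) h6 hb.le) (Real.rpow_nonneg (hL.hs_nonneg _) _)
      (Real.rpow_nonneg hs0 _)
    rw [e]
    exact h7.trans_lt (h3.trans_le (le_abs_self _))

theorem planar {K L : Set (ℝ × ℝ)} (hK : Sym K) (hL : Sym L)
    {a b : ℝ} (ha : 0 < a) (hb : 0 < b) (hab : a + b = 1) :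
    volume K ^ a * volume L ^ b ≤ volume (LW a b K L) := by
  classical
  by_cases k0 : volume K = 0
  · rw [k0, ENNReal.zero_rpow_of_pos ha, zero_mul]
    exact zero_le
  by_cases l0 : volume L = 0
  · rw [l0, ENNReal.zero_rpow_of_pos hb, mul_zero]
    exact zero_le
  by_contra hcon
  obtain ⟨U, hU, hUo, hUv⟩ := Set.exists_isOpen_lt_of_lt _ _ (not_le.1 hcon)
  obtain ⟨g, hg⟩ : ∃ g : ℝ × ℝ → ℝ, ∀ w, g w = hs K w ^ a * hs L w ^ b := ⟨_, fun _ => rfl⟩
  have hB : IsCompact ((Icc (-g (0, 1)) (g (0, 1)) ×ˢ Icc (-g (1, 0)) (g (1, 0))) \ U) :=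
    (isCompact_Icc.prod isCompact_Icc).diff hUo
  obtain ⟨T, hT⟩ := hB.elim_finite_subcover
    (fun w : {w : ℝ × ℝ // w ≠ 0} => {x : ℝ × ℝ | g w.1 < |det w.1 x|})
    (fun w => isOpen_lt continuous_const (by unfold det; fun_prop))
    (fun x hx => by
      obtain ⟨w, hw, h⟩ := planar_sep hK hL ha hb fun h => hx.2 (hU h)
      exact mem_iUnion.2 ⟨⟨w, hw⟩, by rw [mem_ofPred_eq, hg]; exact h⟩)
  have h1 := finW hK hL k0 l0 ha hb hab
    (insert ((1 : ℝ), (0 : ℝ)) (insert ((0 : ℝ), (1 : ℝ)) (T.image Subtype.val)))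
    (fun w hw => by
      rcases Finset.mem_insert.1 hw with rfl | hw
      · simp
      rcases Finset.mem_insert.1 hw with rfl | hw
      · simp
      obtain ⟨v, -, rfl⟩ := Finset.mem_image.1 hw
      exact v.2)
    (Finset.mem_insert_self _ _) (Finset.mem_insert_of_mem (Finset.mem_insert_self _ _))
  refine absurd (h1.trans (measure_mono fun x hx => ?_)) (not_le.2 hUv)
  by_contra hxU
  have h2 := hx _ (Finset.mem_insert_self _ _)
  have h3 := hx _ (Finset.mem_insert_of_mem (Finset.mem_insert_self _ _))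
  rw [← hg] at h2 h3
  simp only [det, one_mul, zero_mul, sub_zero, zero_sub, abs_neg] at h2 h3
  obtain ⟨w, hw, h4⟩ := mem_iUnion₂.1 (hT ⟨⟨abs_le.1 h3, abs_le.1 h2⟩, hxU⟩)
  have h5 := hx w.1 (Finset.mem_insert_of_mem (Finset.mem_insert_of_mem
    (Finset.mem_image_of_mem _ hw)))
  rw [← hg] at h5
  exact absurd h4 (not_lt.2 h5)

end Vale.Agent.P227
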