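import Vale.Agent.P227.Defs
import Vale.Agent.P230.PLw

namespace Vale.Agent.P227

open Set MeasureTheory
open scoped Pointwise

namespace Vert

theorem fib_compact {M : Set (ℝ × ℝ)} (hc : IsCompact M) (x : ℝ) :
    IsCompact (Prod.mk x ⁻¹' M) :=
  (hc.image continuous_snd).of_isClosed_subset
    (hc.isClosed.preimage (Continuous.prodMk_right x)) fun y hy => ⟨(x, y), hy, rfl⟩

theorem fib_convex {M : Set (ℝ × ℝ)} (hv : Convex ℝ M) (x : ℝ) : Convex ℝ (Prod.mk x ⁻¹' M) := by
  intro y hy z hz a b ha hb hab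
  have h := hv hy hz ha hb hab
  have e : a • (x, y) + b • (x, z) = (x, a • y + b • z) := by
    ext
    · simp only [Prod.fst_add, Prod.smul_fst, smul_eq_mul]
      rw [← add_mul, hab, one_mul]
    · rfl
  rwa [e] at h

theorem vol_eq {M : Set (ℝ × ℝ)} (hc : IsCompact M) :
    volume M = ∫⁻ x, volume (Prod.mk x ⁻¹' M) := by
  rw [Measure.volume_eq_prod, Measure.prod_apply hc.measurableSet]

theorem fib_meas {M : Set (ℝ × ℝ)} (hc : IsCompact M) :
    Measurable fun x => volume (Prod.mk x ⁻¹' M) :=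
  measurable_measure_prodMk_left hc.measurableSet

theorem mem_seg {z : ℝ × ℝ} : z ∈ seg (0, 1) ↔ z.1 = 0 ∧ -1 ≤ z.2 ∧ z.2 ≤ 1 := by
  constructor
  · rintro ⟨a, b, ha, hb, hab, rfl⟩
    simp only [Prod.neg_mk, neg_zero, Prod.smul_mk, smul_eq_mul, Prod.mk_add_mk]
    refine ⟨by ring, by linarith, by linarith⟩
  · rintro ⟨h1, h2, h3⟩
    refine ⟨(1 - z.2) / 2, (1 + z.2) / 2, by linarith, by linarith, by ring, ?_⟩
    ext
    · simp [h1]
    · simp only [Prod.neg_mk, neg_zero, Prod.smul_mk, smul_eq_mul, Prod.mk_add_mk]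
      ring

theorem seg_compact : IsCompact (seg (0, 1)) := by
  have e : seg (0, 1) = ({0} : Set ℝ) ×ˢ Icc (-1 : ℝ) 1 := by
    ext z
    rw [mem_seg]
    simp
  rw [e]
  exact isCompact_singleton.prod isCompact_Icc

theorem mem_fib_add {M : Set (ℝ × ℝ)} {x y : ℝ} :
    y ∈ Prod.mk x ⁻¹' (M + seg (0, 1)) ↔ ∃ u ∈ Prod.mk x ⁻¹' M, u - 1 ≤ y ∧ y ≤ u + 1 := by
  constructor
  · rintro ⟨m, hm, z, hz, e⟩
    obtain ⟨h1, h2, h3⟩ := mem_seg.1 hz
    have e1 : m.1 + z.1 = x := congrArg Prod.fst e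
    have e2 : m.2 + z.2 = y := congrArg Prod.snd e
    refine ⟨m.2, ?_, by linarith, by linarith⟩
    have e3 : (x, m.2) = m := Prod.ext (by simp only; linarith) rfl
    rw [mem_preimage, e3]
    exact hm
  · rintro ⟨u, hu, h1, h2⟩
    refine ⟨(x, u), hu, (0, y - u), mem_seg.2 ⟨rfl, by simp only; linarith, by simp only; linarith⟩,
      ?_⟩
    simp

theorem lint_two {f : ℝ → ENNReal} (hf : Measurable f) : ∫⁻ x, f x = 2 * ∫⁻ x, f (2 * x) := by
  conv_lhs => rw [← Real.smul_map_volume_mul_left (a := 2) two_ne_zero]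
  rw [lintegral_smul_measure, lintegral_map hf (measurable_const_mul 2)]
  simp

end Vert

open Vert in
theorem seg_vert {M : Set (ℝ × ℝ)} (hc : IsCompact M) (hv : Convex ℝ M) {h : ℝ} (h0 : 0 ≤ h)
    (hp : Prod.fst '' M = Icc (-h) h) :
    volume (M + seg (0, 1)) = volume M + ENNReal.ofReal (4 * h) := by
  have key : ∀ x, volume (Prod.mk x ⁻¹' (M + seg (0, 1))) =
      volume (Prod.mk x ⁻¹' M) + (Icc (-h) h).indicator (fun _ => ENNReal.ofReal 2) x := by
    intro x
    by_cases hx : x ∈ Icc (-h) h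
    · rw [indicator_of_mem hx]
      rw [← hp] at hx
      obtain ⟨m, hm, rfl⟩ := hx
      have hne : (Prod.mk m.1 ⁻¹' M).Nonempty := ⟨m.2, hm⟩
      have e := eq_Icc_of_connected_compact ((fib_convex hv m.1).isConnected hne)
        (fib_compact hc m.1)
      obtain ⟨p, q, e'⟩ : ∃ p q, Prod.mk m.1 ⁻¹' M = Icc p q := ⟨_, _, e⟩
      have hpq : p ≤ q := nonempty_Icc.1 (e' ▸ hne)
      have e2 : Prod.mk m.1 ⁻¹' (M + seg (0, 1)) = Icc (p - 1) (q + 1) := by
        ext y
        rw [mem_fib_add, e']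
        constructor
        · rintro ⟨u, hu, h1, h2⟩
          exact ⟨by linarith [hu.1], by linarith [hu.2]⟩
        · rintro ⟨h1, h2⟩
          refine ⟨max p (min q y), ⟨le_max_left _ _, max_le hpq (min_le_left _ _)⟩, ?_, ?_⟩
          · have := max_le (show p ≤ y + 1 by linarith)
              ((min_le_right q y).trans (show y ≤ y + 1 by linarith))
            linarith
          · have := (le_min (show y - 1 ≤ q by linarith) (show y - 1 ≤ y by linarith)).trans
              (le_max_right p _)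
            linarith
      rw [e2, e', Real.volume_Icc, Real.volume_Icc,
        ← ENNReal.ofReal_add (by linarith) (by norm_num)]
      congr 1
      ring
    · rw [indicator_of_notMem hx, add_zero]
      have e1 : Prod.mk x ⁻¹' M = ∅ := by
        refine eq_empty_of_forall_notMem fun y hy => hx ?_
        rw [← hp]
        exact ⟨(x, y), hy, rfl⟩
      have e2 : Prod.mk x ⁻¹' (M + seg (0, 1)) = ∅ := by
        refine eq_empty_of_forall_notMem fun y hy => ?_
        obtain ⟨u, hu, -⟩ := mem_fib_add.1 hy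
        rw [e1] at hu
        exact hu
      rw [e1, e2]
  rw [vol_eq (hc.add seg_compact), vol_eq hc, lintegral_congr key,
    lintegral_add_left (fib_meas hc), lintegral_indicator_const measurableSet_Icc,
    Real.volume_Icc, ← ENNReal.ofReal_mul (by norm_num)]
  congr 2
  ring

open Vert in
theorem slice_vert {M N : Set (ℝ × ℝ)} (hM : IsCompact M) (hN : IsCompact N)
    (hp : Prod.fst '' M = Prod.fst '' N) :
    2 * (volume M + volume N) ≤ volume (M + N) := by
  have key : ∀ x : ℝ, volume (Prod.mk x ⁻¹' M) + volume (Prod.mk x ⁻¹' N) ≤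
      volume (Prod.mk (2 * x) ⁻¹' (M + N)) := by
    intro x
    by_cases hx : x ∈ Prod.fst '' M
    · have hx' : x ∈ Prod.fst '' N := hp ▸ hx
      obtain ⟨m, hm, rfl⟩ := hx
      obtain ⟨n, hn, e⟩ := hx'
      have h1 := P230.bmw_compact one_pos one_pos (fib_compact hM m.1) (fib_compact hN m.1)
        ⟨m.2, hm⟩ ⟨n.2, by rw [mem_preimage, ← e]; exact hn⟩
        (C := Prod.mk (2 * m.1) ⁻¹' (M + N)) fun u hu v hv =>
          ⟨(m.1, u), hu, (m.1, v), hv, by simp [two_mul]⟩
      simpa using h1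
    · have hx' : x ∉ Prod.fst '' N := hp ▸ hx
      have e1 : Prod.mk x ⁻¹' M = ∅ :=
        eq_empty_of_forall_notMem fun y hy => hx ⟨(x, y), hy, rfl⟩
      have e2 : Prod.mk x ⁻¹' N = ∅ :=
        eq_empty_of_forall_notMem fun y hy => hx' ⟨(x, y), hy, rfl⟩
      rw [e1, e2]
      simp
  have h2 : volume (M + N) = 2 * ∫⁻ x : ℝ, volume (Prod.mk (2 * x) ⁻¹' (M + N)) := by
    rw [vol_eq (hM.add hN)]
    exact lint_two (fib_meas (hM.add hN))
  rw [h2, vol_eq hM, vol_eq hN, ← lintegral_add_left (fib_meas hM)]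
  exact mul_le_mul_right (lintegral_mono key) _

end Vale.Agent.P227
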