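import Vale.Agent.P227.Hs
import Vale.Agent.P227.Vert

namespace Vale.Agent.P227

open Set MeasureTheory
open scoped Pointwise

theorem exists_rot {v : ℝ × ℝ} (hv : v ≠ 0) : ∃ T : (ℝ × ℝ) ≃L[ℝ] (ℝ × ℝ),
    T v = (0, 1) ∧ (∀ x, (T x).1 = det v x) ∧ ∀ S : Set (ℝ × ℝ), volume (T '' S) = volume S := by
  have hn : 0 < v.1 ^ 2 + v.2 ^ 2 := by
    rcases eq_or_ne v.1 0 with h1 | h1
    · have h2 : v.2 ≠ 0 := fun h2 => hv (Prod.ext h1 h2)
      positivity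
    · positivity
  let f : (ℝ × ℝ) →ₗ[ℝ] (ℝ × ℝ) := Matrix.toLin (Module.Basis.finTwoProd ℝ)
    (Module.Basis.finTwoProd ℝ)
    !![-v.2, v.1; v.1 / (v.1 ^ 2 + v.2 ^ 2), v.2 / (v.1 ^ 2 + v.2 ^ 2)]
  have hf : ∀ x, f x = (-v.2 * x.1 + v.1 * x.2,
      v.1 / (v.1 ^ 2 + v.2 ^ 2) * x.1 + v.2 / (v.1 ^ 2 + v.2 ^ 2) * x.2) :=
    fun x => Matrix.toLin_finTwoProd_apply _ _ _ _ x
  have hdet : LinearMap.det f = -1 := by
    rw [LinearMap.det_toLin, Matrix.det_fin_two_of]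
    field_simp
    ring
  have hd0 : LinearMap.det f ≠ 0 := by
    rw [hdet]
    norm_num
  refine ⟨(f.equivOfDetNeZero hd0).toContinuousLinearEquiv, ?_, ?_, ?_⟩
  · change f v = (0, 1)
    rw [hf]
    refine Prod.ext ?_ ?_
    · change -v.2 * v.1 + v.1 * v.2 = 0
      ring
    · change v.1 / (v.1 ^ 2 + v.2 ^ 2) * v.1 + v.2 / (v.1 ^ 2 + v.2 ^ 2) * v.2 = 1
      field_simp
  · intro x
    change (f x).1 = det v x
    rw [hf]
    change -v.2 * x.1 + v.1 * x.2 = v.1 * x.2 - v.2 * x.1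
    ring
  · intro S
    change volume (f '' S) = volume S
    rw [Measure.addHaar_image_linearMap, hdet]
    simp

theorem rot_add (T : (ℝ × ℝ) ≃L[ℝ] (ℝ × ℝ)) (M N : Set (ℝ × ℝ)) :
    T '' (M + N) = T '' M + T '' N :=
  Set.image_add T

theorem rot_fst {T : (ℝ × ℝ) ≃L[ℝ] (ℝ × ℝ)} {v : ℝ × ℝ} (hT : ∀ x, (T x).1 = det v x)
    {M : Set (ℝ × ℝ)} (hM : Sym M) : Prod.fst '' (T '' M) = Icc (-hs M v) (hs M v) := by
  rw [Set.image_image, ← hM.image_det v]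
  exact Set.image_congr fun x _ => hT x

theorem vol_add_seg {M : Set (ℝ × ℝ)} (hM : Sym M) (v : ℝ × ℝ) :
    volume (M + seg v) = volume M + ENNReal.ofReal (4 * hs M v) := by
  rcases eq_or_ne v 0 with rfl | hv
  · have h1 : seg (0 : ℝ × ℝ) = {0} := by
      rw [seg, neg_zero, segment_same]
    have h2 : hs M 0 = 0 := by
      refine le_antisymm (hM.hs_le 0 fun x _ => ?_) (hM.hs_nonneg 0)
      simp [det]
    rw [h1, h2, Set.add_singleton]
    simp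
  · obtain ⟨T, hT1, hT2, hT3⟩ := exists_rot hv
    have h1 : T '' seg v = seg (0, 1) := by
      have := image_segment ℝ (T : (ℝ × ℝ) →ₗ[ℝ] (ℝ × ℝ)).toAffineMap (-v) v
      simp only [LinearMap.coe_toAffineMap, map_neg] at this
      rw [seg, seg, ← hT1]
      exact this
    rw [← hT3 (M + seg v), rot_add, h1, ← hT3 M]
    exact seg_vert (hM.cpt.image T.continuous)
      (hM.cvx.linear_image (T : (ℝ × ℝ) →ₗ[ℝ] (ℝ × ℝ))) (hM.hs_nonneg v) (rot_fst hT2 hM)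

theorem slice {M N : Set (ℝ × ℝ)} (hM : Sym M) (hN : Sym N) {w : ℝ × ℝ} (hw : w ≠ 0)
    (h : hs M w = hs N w) : 2 * (volume M + volume N) ≤ volume (M + N) := by
  obtain ⟨T, -, hT2, hT3⟩ := exists_rot hw
  rw [← hT3 (M + N), rot_add, ← hT3 M, ← hT3 N]
  refine slice_vert (hM.cpt.image T.continuous) (hN.cpt.image T.continuous) ?_
  rw [rot_fst hT2 hM, rot_fst hT2 hN, h]

end Vale.Agent.P227
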