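import Mathlib

namespace Vale.Agent.P227

open scoped RealInnerProductSpace

/-- support function of a set in Euclidean space -/
noncomputable def supp {n : ℕ} (K : Set (EuclideanSpace ℝ (Fin n))) (u : EuclideanSpace ℝ (Fin n)) :
    ℝ := sSup ((fun x => ⟪x, u⟫) '' K)

/-- the logarithmic combination: the Wulff body of `h_K ^ (1 - t) * h_L ^ t` -/
def logComb {n : ℕ} (t : ℝ) (K L : Set (EuclideanSpace ℝ (Fin n))) :
    Set (EuclideanSpace ℝ (Fin n)) :=
  {x | ∀ u : EuclideanSpace ℝ (Fin n), ‖u‖ = 1 → ⟪x, u⟫ ≤ supp K u ^ (1 - t) * supp L u ^ t}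

end Vale.Agent.P227
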