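import Vale.Agent.P227.Rot

namespace Vale.Agent.P227

open Set MeasureTheory
open scoped Pointwise

theorem vol_add_zono {ι : Type*} {M : Set (ℝ × ℝ)} (hM : Sym M) (s : Finset ι) (v : ι → ℝ × ℝ) :
    volume (M + ∑ i ∈ s, seg (v i)) = volume M +
      ENNReal.ofReal (4 * ∑ i ∈ s, hs M (v i) + 2 * ∑ i ∈ s, ∑ j ∈ s, |det (v i) (v j)|) := by
  classical
  induction s using Finset.induction_on with
  | empty => simp
  | insert a s ha ih =>
    have h1 : 0 ≤ ∑ i ∈ s, hs M (v i) := Finset.sum_nonneg fun i _ => hM.hs_nonneg _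
    have h2 : 0 ≤ ∑ i ∈ s, ∑ j ∈ s, |det (v i) (v j)| :=
      Finset.sum_nonneg fun i _ => Finset.sum_nonneg fun j _ => abs_nonneg _
    have h3 : 0 ≤ ∑ j ∈ s, |det (v a) (v j)| := Finset.sum_nonneg fun j _ => abs_nonneg _
    have h4 := hM.hs_nonneg (v a)
    rw [Finset.sum_insert ha, add_comm (seg (v a)), ← add_assoc,
      vol_add_seg (hM.add (Sym.sum s v)), ih, hM.hs_add (Sym.sum s v), hs_sum, add_assoc,
      ← ENNReal.ofReal_add (by positivity) (by positivity)]
    congr 2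
    simp only [Finset.sum_insert ha, Finset.sum_add_distrib, det_self, abs_zero]
    rw [Finset.sum_congr rfl fun i _ => abs_det_comm (v i) (v a)]
    ring

theorem vol_zono {ι : Type*} (s : Finset ι) (v : ι → ℝ × ℝ) :
    volume (∑ i ∈ s, seg (v i)) = ENNReal.ofReal (2 * ∑ i ∈ s, ∑ j ∈ s, |det (v i) (v j)|) := by
  have h := vol_add_zono Sym.zero s v
  rw [Set.singleton_zero, zero_add, ← Set.singleton_zero] at h
  simpa [hs_zero] using h

end Vale.Agent.P227
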